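import Vale.Agent.Lib.P130.OneSided

namespace Vale.Agent.Results.P130.OneSided

open MeasureTheory ComplexConjugate Vale.Agent.Lib.P130

/-- One-sided analogue of Banach's problem: on an atomless probability space, for a
measure-preserving map `T` (not assumed invertible) there is no `f ∈ L²` of mean zero such
that `{f ∘ Tⁿ : n ≥ 0}` is an orthonormal basis of `L²₀` (orthonormal, and every mean-zero
`g ∈ L²` orthogonal to all `f ∘ Tⁿ` vanishes almost everywhere). -/
theorem result {X : Type*} [MeasurableSpace X] (μ : Measure X) [IsProbabilityMeasure μ]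
    (hμ : Atomless μ) (T : X → X) (hT : MeasurePreserving T μ μ)
    (f : X → ℂ) (hf : MemLp f 2 μ) :
    ¬ ((∫ x, f x ∂μ = 0) ∧
      (∀ m n : ℕ, ∫ x, f (T^[m] x) * conj (f (T^[n] x)) ∂μ = if m = n then 1 else 0) ∧
      (∀ g : X → ℂ, MemLp g 2 μ → ∫ x, g x ∂μ = 0 →
        (∀ n : ℕ, ∫ x, g x * conj (f (T^[n] x)) ∂μ = 0) → g =ᵐ[μ] 0)) :=
  fun h => no_one_sided_basis hμ T hT f hf h.1 h.2.1 h.2.2

end Vale.Agent.Results.P130.OneSided
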